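import Vale.Agent.Lib.P078.Main

open Vale.Agent.Lib.P078

/-- Let `A` be a maximal abelian self-adjoint subalgebra of `B(H)`, `H ≠ 0` an arbitrary complex
Hilbert space, with no minimal projection. For `ε > 0`:
every self-adjoint `x` is `(ε, r)` so-pavable over `A` as soon as `r ε > 1`;
for `r ε < 1` some self-adjoint `x` of norm one is not `(ε, r)` so-pavable;
hence the paving number `n_{A ⊆ B(H)}(ε)`, the least `r ≥ 1` such that all self-adjoint `x` are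
`(ε, r)` so-pavable, exists and satisfies `1 / ε ≤ n ≤ 1 / ε + 1`. -/
theorem Vale.Agent.Results.P078.DiffuseMasaExactOrder.result
    {H : Type*} [NormedAddCommGroup H] [InnerProductSpace ℂ H] [CompleteSpace H] [Nontrivial H]
    (A : StarSubalgebra ℂ (H →L[ℂ] H)) (hA : IsMasa A) (hd : IsDiffuse A)
    (ε : ℝ) (hε : 0 < ε) :
    (∀ r : ℕ, 0 < r → 1 < r * ε → ∀ x : H →L[ℂ] H, IsSelfAdjoint x → SoPavable A ε r x) ∧
    (∀ r : ℕ, 0 < r → r * ε < 1 → ∃ x : H →L[ℂ] H, IsSelfAdjoint x ∧ ‖x‖ = 1 ∧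
      ¬ SoPavable A ε r x) ∧
    ∃ n : ℕ, IsLeast {r : ℕ | 0 < r ∧ ∀ x : H →L[ℂ] H, IsSelfAdjoint x → SoPavable A ε r x} n ∧
      1 / ε ≤ n ∧ (n : ℝ) ≤ 1 / ε + 1 :=
  paving_number hA hd hε
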